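import Vale.Agent.P032.H383.Sweep

/-!
# P032: the first change of class after a generic time

`Sw.first`  : after a generic time there is a first time `u` at which the class changes; all limit
columns from the left of `u` have one class, and a limit column from the right has another one.
`Sw.clean_turn` : if such times are unique modulo one period, then the class of every limit column
from the right of `u` is the class of every shifted limit column from the left of `u`.
-/

open Set Filter Topology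

namespace Vale.Agent.P032.Sweep

variable {ι Λ A : Type*} {X : ι → Λ → Set ℝ} {Leg : (ι → Λ) → Prop}

/-- a change of class at `u`, clean from the left -/
def Chg (X : ι → Λ → Set ℝ) (cl : (ι → Λ) → A) (u : ℝ) : Prop :=
  (∀ g ∈ LC X u, ∀ g' ∈ LC X u, cl g = cl g') ∧ ∃ g ∈ LC X u, ∃ h ∈ RC X u, cl g ≠ cl h

/-- the first change of class after a generic time -/
theorem Sw.first [Finite ι] [Finite Λ] (w : Sw X Leg) (cl : (ι → Λ) → A) {t s : ℝ} (ht : t ∈ Gn X)
    {c : ι → Λ} (hc : Av X t c) (hts : t < s) (hs : ∃ g ∈ LC X s ∪ RC X s, cl g ≠ cl c) :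
    ∃ u, t < u ∧ u ≤ s ∧ Chg X cl u ∧ (∀ g ∈ LC X u, cl g = cl c) := by
  set S : Set ℝ := {v | t < v ∧ ∃ g ∈ LC X v ∪ RC X v, cl g ≠ cl c} with hS
  have hsS : s ∈ S := ⟨hts, hs⟩
  have hbd : BddBelow S := ⟨t, fun v hv => hv.1.le⟩
  -- near `t` there is only the column `c`
  have hone : ∀ᶠ v in 𝓝[>] t, ∀ g ∈ LC X v ∪ RC X v, cl g = cl c := by
    filter_upwards [Sw.sub_right (X := X) t] with v hv g hg
    obtain ⟨x, hx⟩ := w.exists_av t
    have h1 : g ∈ RC X t := hv hg
    have h2 := w.av_of_RC h1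
    have : g = c := funext fun i => ht i _ _ (h2 i) (hc i)
    rw [this]
  obtain ⟨b, hb, hbS⟩ := (mem_nhdsGT_iff_exists_Ioo_subset).1 hone
  have hb : t < b := hb
  have hlow : ∀ v ∈ S, b ≤ v := by
    intro v hv
    by_contra hcon
    push Not at hcon
    obtain ⟨g, hg, hne⟩ := hv.2
    exact hne (hbS ⟨hv.1, hcon⟩ g hg)
  have htu : t < sInf S := hb.trans_le (le_csInf ⟨s, hsS⟩ hlow)
  have hus : sInf S ≤ s := csInf_le hbd hsS
  set u := sInf S with hu
  have hbef : ∀ v, t < v → v < u → ∀ g ∈ LC X v ∪ RC X v, cl g = cl c := by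
    intro v h1 h2 g hg
    by_contra hne
    exact absurd (csInf_le hbd (show v ∈ S from ⟨h1, g, hg, hne⟩)) (not_le.2 h2)
  have hL : ∀ g ∈ LC X u, cl g = cl c := by
    intro g hg
    obtain ⟨v, hv, h1⟩ := (Frequently.and_eventually hg (Ioo_mem_nhdsLT htu)).exists
    exact hbef v h1.1 h1.2 g (Or.inl (w.self_LC hv.1 hv.2))
  have hR : ∃ h ∈ RC X u, cl h ≠ cl c := by
    by_contra hcon
    push Not at hcon
    obtain ⟨d, hd, hdS⟩ := (mem_nhdsGT_iff_exists_Ioo_subset).1 (Sw.sub_right (X := X) u)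
    have hd : u < d := hd
    have hlow2 : ∀ v ∈ S, d ≤ v := by
      intro v hv
      by_contra hcon2
      push Not at hcon2
      obtain ⟨g, hg, hne⟩ := hv.2
      have h1 : u ≤ v := csInf_le hbd hv
      rcases h1.eq_or_lt with h1 | h1
      · rw [← h1] at hg
        rcases hg with hg | hg
        · exact hne (hL g hg)
        · exact hne (hcon g hg)
      · exact hne (hcon g (hdS ⟨h1, hcon2⟩ hg))
    exact absurd (le_csInf ⟨s, hsS⟩ hlow2) (not_le.2 hd)
  obtain ⟨h, hh, hne⟩ := hR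
  obtain ⟨g, hg⟩ := w.LC_ne u
  exact ⟨u, htu, hus, ⟨fun g hg g' hg' => (hL g hg).trans (hL g' hg').symm, g, hg, h, hh,
    fun he => hne (he.symm.trans (hL g hg))⟩, hL⟩

/-- **changes of class which are unique modulo one period** -/
theorem Sw.clean_turn [Finite ι] [Finite Λ] (w : Sw X Leg) {σ : Equiv.Perm ι}
    (per : ∀ i l u, u + 1 ∈ X i l ↔ u ∈ X (σ i) l) (cl : (ι → Λ) → A)
    (hsh : ∀ h, Leg h → cl (h ∘ σ) ≠ cl h)
    (huni : ∀ u u', Chg X cl u → Chg X cl u' → ∃ n : ℤ, u' = u + n) :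
    ∃ u, Chg X cl u ∧ ∀ g ∈ LC X u, ∀ h ∈ RC X u, cl h = cl (g ∘ σ) := by
  have key : ∀ t ∈ Gn X, ∀ c, Av X t c → ∃ u, t < u ∧ u ≤ t + 1 ∧ Chg X cl u ∧
      ∀ g ∈ LC X u, cl g = cl c := by
    intro t ht c hc
    refine w.first cl ht hc (by linarith) ⟨c ∘ σ, Or.inl (LC_shift per (w.self_LC ht hc)), ?_⟩
    exact hsh c (w.leg t ht c hc)
  obtain ⟨t, ht⟩ := w.dense_Gn.nonempty
  obtain ⟨c, hc⟩ := w.exists_av t
  obtain ⟨u, -, -, hu, -⟩ := key t ht c hc
  refine ⟨u, hu, fun g hg h hh => ?_⟩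
  obtain ⟨v, hv, h1⟩ := (Frequently.and_eventually hh (Ioo_mem_nhdsGT (show u < u + 1 by
    linarith))).exists
  obtain ⟨u', h2, h3, h4, h5⟩ := key v hv.1 h hv.2
  obtain ⟨n, hn⟩ := huni u u' hu h4
  have hn1 : n = 1 := by
    have h6 : (0 : ℝ) < n := by linarith [h1.1]
    have h7 : (n : ℝ) < 2 := by linarith [h1.2]
    have h8 : (0 : ℤ) < n := by exact_mod_cast h6
    have h9 : n < 2 := by exact_mod_cast h7
    omega
  rw [hn1, Int.cast_one] at hn
  have := h5 (g ∘ σ) (by rw [hn]; exact LC_shift per hg)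
  exact this.symm

end Vale.Agent.P032.Sweep
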