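import Mathlib

/-!
# P032: five consecutive slots of a 5-centre without the free colour (finite part)

`run5`: in a set `M` of five colours let `a, b, c, d, e` be subsets with two or three elements,
consecutive ones disjoint, `a ∪ d` and `b ∪ e` with at most three elements.  Then all are pairs, and
either `a, c, e, b, d` are the edges of a pentagon, or `a`, `c`, `e` are different and have a common
colour.
-/

namespace Vale.Agent.P032.H985

/-- the set of colours with code `m` -/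
def mk (m : ℕ) : Finset (Fin 6) := Finset.univ.filter fun i => m.testBit i.val

theorem mem_mk {m : ℕ} {i : Fin 6} : i ∈ mk m ↔ m.testBit i.val = true := by simp [mk]

theorem mk_surj (s : Finset (Fin 6)) : ∃ m < 64, mk m = s := by
  refine ⟨Nat.ofBits (fun i : Fin 6 => decide (i ∈ s)), Nat.ofBits_lt_two_pow _, ?_⟩
  ext i
  rw [mem_mk, Nat.testBit_ofBits_lt _ i.val i.isLt]
  simp

theorem mk_inter (m n : ℕ) : mk m ∩ mk n = mk (m &&& n) := by
  ext i; simp [mem_mk]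

theorem mk_union (m n : ℕ) : mk m ∪ mk n = mk (m ||| n) := by
  ext i; simp [mem_mk]

/-- number of elements -/
def cd (m : ℕ) : ℕ := (m.testBit 0).toNat + (m.testBit 1).toNat + (m.testBit 2).toNat +
  (m.testBit 3).toNat + (m.testBit 4).toNat + (m.testBit 5).toNat

theorem card_mk (m : ℕ) : (mk m).card = cd m := by
  unfold mk cd
  rw [Finset.card_filter]
  rw [Fin.sum_univ_six]
  have h : ∀ b : Bool, (if b = true then 1 else 0) = b.toNat := by decide
  simp only [h]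
  rfl

/-- codes of the sets with two or three elements -/
def CL : List ℕ := [3, 5, 6, 7, 9, 10, 11, 12, 13, 14, 17, 18, 19, 20, 21, 22, 24, 25, 26, 28, 33, 34, 35, 36, 37, 38, 40, 41, 42, 44, 48, 49, 50, 52, 56]

/-- codes of the sets with five elements -/
def ML : List ℕ := [31, 47, 55, 59, 61, 62]

theorem mem_CL : ∀ m < 64, 2 ≤ cd m → cd m ≤ 3 → m ∈ CL := by decide +kernel

theorem mem_ML : ∀ m < 64, cd m = 5 → m ∈ ML := by decide +kernel

/-- pentagon or a colour of degree three -/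
def pent (M a b c d e : ℕ) : Bool :=
  (cd (a &&& c &&& e) == 1 && !(a == c) && !(c == e) && !(a == e)) ||
    ((List.range 6).any fun x => a.testBit x && d.testBit x &&
    (List.range 6).any fun y => a.testBit y && c.testBit y &&
    (List.range 6).any fun s => c.testBit s && e.testBit s &&
    (List.range 6).any fun t => e.testBit t && b.testBit t &&
    (List.range 6).any fun w => b.testBit w && d.testBit w &&
      a == 2 ^ x ||| 2 ^ y && c == 2 ^ y ||| 2 ^ s && e == 2 ^ s ||| 2 ^ t &&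
      b == 2 ^ t ||| 2 ^ w && d == 2 ^ w ||| 2 ^ x &&
      M == 2 ^ x ||| 2 ^ y ||| 2 ^ s ||| 2 ^ t ||| 2 ^ w)

/-- the check -/
def chk : Bool := ML.all fun M => CL.all fun a => !(a &&& M == a) || CL.all fun b =>
  !(b &&& M == b) || !(a &&& b == 0) || CL.all fun c => !(c &&& M == c) || !(b &&& c == 0) ||
  CL.all fun d => !(d &&& M == d) || !(c &&& d == 0) || !(Nat.ble (cd (a ||| d)) 3) ||
  CL.all fun e => !(e &&& M == e) || !(d &&& e == 0) || !(Nat.ble (cd (b ||| e)) 3) ||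
  (cd a == 2 && cd b == 2 && cd c == 2 && cd d == 2 && cd e == 2 && pent M a b c d e)

theorem chk_true : chk = true := by decide +kernel

theorem mk_two : ∀ x y : Fin 6, mk (2 ^ x.val ||| 2 ^ y.val) = {x, y} := by decide +kernel

theorem mk_pow (x : Fin 6) : mk (2 ^ x.val) = {x} := by revert x; decide +kernel

theorem mk_zero : mk 0 = ∅ := by ext i; simp [mem_mk]

theorem sub_code {m n : ℕ} (hm : m < 64) (h : mk m ⊆ mk n) : (m &&& n) = m := by
  apply Nat.eq_of_testBit_eq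
  intro i
  rw [Nat.testBit_and]
  by_cases hi : i < 6
  · by_cases h1 : m.testBit i = true
    · have h2 : (⟨i, hi⟩ : Fin 6) ∈ mk n := h (mem_mk.2 h1)
      rw [mem_mk] at h2
      rw [h1]; simpa using h2
    · simp only [Bool.not_eq_true] at h1
      rw [h1]; rfl
  · rw [Nat.testBit_lt_two_pow (lt_of_lt_of_le hm (Nat.pow_le_pow_right (n := 2) (by norm_num)
      (show 6 ≤ i by omega)))]
    rfl

theorem dis_code {m n : ℕ} (hm : m < 64) (h : Disjoint (mk m) (mk n)) : (m &&& n) = 0 := by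
  apply Nat.eq_of_testBit_eq
  intro i
  rw [Nat.testBit_and, Nat.zero_testBit]
  by_cases hi : i < 6
  · by_contra hcon
    simp only [Bool.not_eq_false, Bool.and_eq_true] at hcon
    exact Finset.disjoint_left.1 h ((mem_mk (i := ⟨i, hi⟩)).2 hcon.1) (mem_mk.2 hcon.2)
  · rw [Nat.testBit_lt_two_pow (lt_of_lt_of_le hm (Nat.pow_le_pow_right (n := 2) (by norm_num)
      (show 6 ≤ i by omega)))]
    rfl

theorem run5 {M a b c d e : Finset (Fin 6)} (hM : M.card = 5)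
    (ha : a ⊆ M) (ha2 : 2 ≤ a.card) (ha3 : a.card ≤ 3)
    (hb : b ⊆ M) (hb2 : 2 ≤ b.card) (hb3 : b.card ≤ 3)
    (hc : c ⊆ M) (hc2 : 2 ≤ c.card) (hc3 : c.card ≤ 3)
    (hd : d ⊆ M) (hd2 : 2 ≤ d.card) (hd3 : d.card ≤ 3)
    (he : e ⊆ M) (he2 : 2 ≤ e.card) (he3 : e.card ≤ 3)
    (hab : Disjoint a b) (hbc : Disjoint b c) (hcd : Disjoint c d) (hde : Disjoint d e)
    (had : (a ∪ d).card ≤ 3) (hbe : (b ∪ e).card ≤ 3) :
    (a.card = 2 ∧ b.card = 2 ∧ c.card = 2 ∧ d.card = 2 ∧ e.card = 2) ∧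
      ((∃ i, i ∈ a ∧ i ∈ c ∧ i ∈ e ∧ a ≠ c ∧ c ≠ e ∧ a ≠ e) ∨
        ∃ x y s t w : Fin 6, a = {x, y} ∧ c = {y, s} ∧ e = {s, t} ∧ b = {t, w} ∧ d = {w, x} ∧
          M = {x, y, s, t, w}) := by
  obtain ⟨M, hM64, rfl⟩ := mk_surj M
  obtain ⟨a, ha64, rfl⟩ := mk_surj a
  obtain ⟨b, hb64, rfl⟩ := mk_surj b
  obtain ⟨c, hc64, rfl⟩ := mk_surj c
  obtain ⟨d, hd64, rfl⟩ := mk_surj d
  obtain ⟨e, he64, rfl⟩ := mk_surj e
  rw [mk_union] at had hbe
  simp only [card_mk] at *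
  have key := chk_true
  unfold chk at key
  rw [List.all_eq_true] at key
  have k1 := key M (mem_ML M hM64 hM)
  rw [List.all_eq_true] at k1
  have k2 := k1 a (mem_CL a ha64 ha2 ha3)
  rw [sub_code ha64 ha, BEq.rfl, Bool.not_true, Bool.false_or, List.all_eq_true] at k2
  have k3 := k2 b (mem_CL b hb64 hb2 hb3)
  rw [sub_code hb64 hb, dis_code ha64 hab, BEq.rfl, BEq.rfl, Bool.not_true, Bool.false_or,
    Bool.false_or, List.all_eq_true] at k3
  have k4 := k3 c (mem_CL c hc64 hc2 hc3)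
  rw [sub_code hc64 hc, dis_code hb64 hbc, BEq.rfl, BEq.rfl, Bool.not_true, Bool.false_or,
    Bool.false_or, List.all_eq_true] at k4
  have k5 := k4 d (mem_CL d hd64 hd2 hd3)
  rw [sub_code hd64 hd, dis_code hc64 hcd, BEq.rfl, BEq.rfl, Nat.ble_eq_true_of_le had,
    Bool.not_true, Bool.false_or, Bool.false_or, Bool.false_or, List.all_eq_true] at k5
  have k6 := k5 e (mem_CL e he64 he2 he3)
  rw [sub_code he64 he, dis_code hd64 hde, BEq.rfl, BEq.rfl, Nat.ble_eq_true_of_le hbe,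
    Bool.not_true, Bool.false_or, Bool.false_or, Bool.false_or] at k6
  simp only [Bool.and_eq_true, beq_iff_eq] at k6
  obtain ⟨⟨⟨⟨⟨q1, q2⟩, q3⟩, q4⟩, q5⟩, q6⟩ := k6
  refine ⟨⟨q1, q2, q3, q4, q5⟩, ?_⟩
  unfold pent at q6
  rw [Bool.or_eq_true] at q6
  rcases q6 with q6 | q6
  · left
    simp only [Bool.and_eq_true, beq_iff_eq, Bool.not_eq_true', beq_eq_false_iff_ne] at q6
    obtain ⟨⟨⟨r1, r2⟩, r3⟩, r4⟩ := q6
    rw [← card_mk, ← mk_inter, ← mk_inter] at r1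
    obtain ⟨i, hi⟩ := Finset.card_eq_one.1 r1
    have h1 : i ∈ mk a ∩ mk c ∩ mk e := by rw [hi]; exact Finset.mem_singleton_self i
    simp only [Finset.mem_inter] at h1
    have inj : ∀ m n : ℕ, m < 64 → n < 64 → mk m = mk n → m = n := by
      intro m n hm hn hmn
      have h2 := sub_code hm (le_of_eq hmn)
      have h3 := sub_code hn (le_of_eq hmn.symm)
      rw [← h2, Nat.and_comm, h3]
    exact ⟨i, h1.1.1, h1.1.2, h1.2, fun h => r2 (inj _ _ ha64 hc64 h),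
      fun h => r3 (inj _ _ hc64 he64 h), fun h => r4 (inj _ _ ha64 he64 h)⟩
  · right
    simp only [List.any_eq_true, Bool.and_eq_true, beq_iff_eq, List.mem_range] at q6
    obtain ⟨x, hx, ⟨-, -⟩, y, hy, ⟨-, -⟩, s, hs, ⟨-, -⟩, t, ht, ⟨-, -⟩, w, hw, ⟨⟨⟨⟨⟨⟨-, -⟩, e1⟩, e2⟩,
      e3⟩, e4⟩, e5⟩, e6⟩ := q6
    refine ⟨⟨x, hx⟩, ⟨y, hy⟩, ⟨s, hs⟩, ⟨t, ht⟩, ⟨w, hw⟩, ?_, ?_, ?_, ?_, ?_, ?_⟩
    · rw [e1]; exact mk_two ⟨x, hx⟩ ⟨y, hy⟩
    · rw [e2]; exact mk_two ⟨y, hy⟩ ⟨s, hs⟩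
    · rw [e3]; exact mk_two ⟨s, hs⟩ ⟨t, ht⟩
    · rw [e4]; exact mk_two ⟨t, ht⟩ ⟨w, hw⟩
    · rw [e5]; exact mk_two ⟨w, hw⟩ ⟨x, hx⟩
    · rw [e6, ← mk_union, ← mk_union, ← mk_union, mk_two ⟨x, hx⟩ ⟨y, hy⟩, mk_pow ⟨s, hs⟩,
        mk_pow ⟨t, ht⟩, mk_pow ⟨w, hw⟩]
      ext i
      simp only [Finset.mem_union, Finset.mem_insert, Finset.mem_singleton]
      tauto

end Vale.Agent.P032.H985
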