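import Vale.Agent.P032.H383.Letters
import Vale.Agent.P032.S5.H360.Degree
import Vale.Agent.P032.H985.Comb

/-!
# P032: the pentagon of exact arcs of a 5-centre

`five_or_transfer`: `|T z| = 5` (nothing is assumed on the circle).  EITHER the circle carries five
exact arcs `{c i, c (i + 2)}`, `T z = range c`, OR there is a transfer of the free colour `f`
between two points `p, q` of `S(z)` at distance one.
-/

open Set Filter Topology Metric

noncomputable section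

namespace Vale.Agent.P032.H985

open Vale.Agent.P032.Six Vale.Agent.P032.S5.H767 Vale.Agent.P032.Sweep

variable {U : Fin 6 → Set ℂ} {T : ℂ → Set (Fin 6)} {z : ℂ}

/-- five exact arcs which form a pentagon -/
def Pen (T : ℂ → Set (Fin 6)) (z : ℂ) : Prop :=
  ∃ c : Fin 5 → Fin 6, Function.Injective c ∧ T z = range c ∧ ∀ i, ∃ q, q ∈ Ex T z {c i, c (i + 2)}

/-- transfer of the colour `f` between `p` and `q` -/
structure Tr (T : ℂ → Set (Fin 6)) (z : ℂ) (f : Fin 6) (p q : ℂ) : Prop where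
  dp : dist p z = 1
  dq : dist q z = 1
  dpq : dist p q = 1
  fp : ∃ P, f ∈ P ∧ p ∈ closure (Ex T z P)
  pp : ∃ P, P ⊆ T z ∧ 2 ≤ P.ncard ∧ p ∈ closure (Ex T z P)
  fq : ∃ P, f ∈ P ∧ q ∈ closure (Ex T z P)
  pq : ∃ P, P ⊆ T z ∧ 2 ≤ P.ncard ∧ q ∈ closure (Ex T z P)

/-- legal columns -/
def Leg5 (U : Fin 6 → Set ℂ) (T : ℂ → Set (Fin 6)) (z : ℂ) (g : Unit × Fin 6 → Set (Fin 6)) : Prop :=
  Bas U T (fun _ : Unit => z) g ∧ ∀ s, ∃ q, q ∈ Ex T z (g s)

/-- the letters of the circle (palettes) -/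
abbrev X5 (T : ℂ → Set (Fin 6)) (z : ℂ) : Unit × Fin 6 → Set (Fin 6) → Set ℝ :=
  Xl T (fun _ : Unit => z) 0 fun (_ : Unit) (P : Set (Fin 6)) => P

theorem sw5 (h : Irr U T) (z : ℂ) : Sw (X5 T z) (Leg5 U T z) :=
  sw_of h (Dir_dense _ _) fun _ hd hu =>
    ⟨bas_of h hu hd, fun s => ⟨_, Lc_Ex (hu s)⟩⟩

/-- the free colour is unique -/
theorem free_unique (h5 : (T z).ncard = 5) {f : Fin 6} (hf : f ∉ T z) {i : Fin 6} (hi : i ∉ T z) :
    i = f := by
  by_contra hne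
  have := ncard_le_four hi hf hne
  omega

theorem Leg5.sub {g : Unit × Fin 6 → Set (Fin 6)} (h5 : (T z).ncard = 5) {f : Fin 6}
    (hf : f ∉ T z) {s : Unit × Fin 6} (hs : f ∉ g s) : g s ⊆ T z := by
  intro i hi
  by_contra hcon
  exact hs (free_unique h5 hf hcon ▸ hi)

theorem Leg5.two (h5 : (T z).ncard = 5) {g : Unit × Fin 6 → Set (Fin 6)} (hg : Leg5 U T z g)
    {f : Fin 6} (hf : f ∉ T z) {j : Fin 6} (hs : f ∉ g ((), j)) :
    2 ≤ (g ((), j)).ncard ∧ (g ((), j)).ncard ≤ 3 := by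
  have h1 : g ((), j) ⊆ T z := Leg5.sub h5 hf hs
  obtain ⟨h2, h3⟩ := hg.1.two () j h1
  have h3 : 2 ≤ (T z \ g ((), j)).ncard := h3
  have h4 := Set.ncard_sdiff_add_ncard_of_subset h1
  exact ⟨h2, by omega⟩

open Classical in
/-- **five consecutive slots without `f` form a pentagon** -/
theorem run (h : Irr U T)
    (hmin : ∀ z, 4 ≤ (T z).ncard → ∀ s, s ⊆ T z → s ≠ T z →
      ¬ ∀ᶠ w in 𝓝 z, ∃ i ∈ s, w ∈ U i ∨ (w ∈ XX U ∧ i ∈ Pal U w)) (h5 : (T z).ncard = 5)
    {g : Unit × Fin 6 → Set (Fin 6)} (hg : Leg5 U T z g) {f : Fin 6} (hf : f ∉ T z) (k : Fin 6)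
    (hrun : ∀ j, j ≠ k → f ∉ g ((), j)) : Pen T z := by
  have hz : z ∈ XX U := by
    have h1 : k + 1 ≠ k := fun hcon => by simp at hcon
    obtain ⟨i, hi⟩ := hg.1.ne ((), k + 1)
    obtain ⟨q, hq⟩ := hg.2 ((), k + 1)
    have hTq := ex_self hq
    have hi2 : i ∈ T q := by rw [hTq]; exact hi
    exact h.mem_XX (by rw [dist_comm]; exact hq.1) (Leg5.sub h5 hf (hrun _ h1) hi) (h.sub _ hi2)
  have hne : ∀ i : Fin 6, i ≠ 0 → k + i ≠ k := by
    intro i hi hcon
    exact hi (by simpa using hcon)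
  have hG : ∀ j, j ≠ k → (g ((), j)).toFinset ⊆ (T z).toFinset ∧ 2 ≤ (g ((), j)).toFinset.card ∧
      (g ((), j)).toFinset.card ≤ 3 := by
    intro j hj
    refine ⟨Set.toFinset_subset_toFinset.2 (Leg5.sub h5 hf (hrun j hj)), ?_⟩
    rw [← Set.ncard_eq_toFinset_card']
    exact Leg5.two h5 hg hf (hrun j hj)
  have hD : ∀ j, Disjoint (g ((), j)).toFinset (g ((), j + 1)).toFinset := fun j =>
    Set.disjoint_toFinset.2 (hg.1.sixty () j)
  have hA : ∀ j, j ≠ k → j + 3 ≠ k →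
      ((g ((), j)).toFinset ∪ (g ((), j + 3)).toFinset).card ≤ 3 := by
    intro j hj hj3
    have h1 : 2 ≤ (T z \ (g ((), j) ∪ g ((), j + 3))).ncard := hg.1.anti () hz j
    have h2 : g ((), j) ∪ g ((), j + 3) ⊆ T z :=
      union_subset (Leg5.sub h5 hf (hrun j hj)) (Leg5.sub h5 hf (hrun _ hj3))
    have h3 := Set.ncard_sdiff_add_ncard_of_subset h2
    rw [← Set.toFinset_union, ← Set.ncard_eq_toFinset_card']
    omega
  have hM : (T z).toFinset.card = 5 := by rw [← Set.ncard_eq_toFinset_card']; exact h5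
  obtain ⟨a1, a2, a3⟩ := hG (k + 1) (hne 1 (by decide))
  obtain ⟨b1, b2, b3⟩ := hG (k + 2) (hne 2 (by decide))
  obtain ⟨c1, c2, c3⟩ := hG (k + 3) (hne 3 (by decide))
  obtain ⟨d1, d2, d3⟩ := hG (k + 4) (hne 4 (by decide))
  obtain ⟨e1, e2, e3⟩ := hG (k + 5) (hne 5 (by decide))
  have q12 := hD (k + 1)
  have q23 := hD (k + 2)
  have q34 := hD (k + 3)
  have q45 := hD (k + 4)
  have q14 := hA (k + 1) (hne 1 (by decide)) (by rw [add_assoc]; exact hne 4 (by decide))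
  have q25 := hA (k + 2) (hne 2 (by decide)) (by rw [add_assoc]; exact hne 5 (by decide))
  rw [add_assoc] at q12 q23 q34 q45 q14 q25
  have E12 : (1 : Fin 6) + 1 = 2 := rfl
  have E23 : (2 : Fin 6) + 1 = 3 := rfl
  have E34 : (3 : Fin 6) + 1 = 4 := rfl
  have E45 : (4 : Fin 6) + 1 = 5 := rfl
  have E14 : (1 : Fin 6) + 3 = 4 := rfl
  have E25 : (2 : Fin 6) + 3 = 5 := rfl
  rw [E12] at q12
  rw [E23] at q23
  rw [E34] at q34
  rw [E45] at q45
  rw [E14] at q14
  rw [E25] at q25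
  obtain ⟨⟨n1, n2, n3, n4, n5⟩, hcase⟩ := run5 hM a1 a2 a3 b1 b2 b3 c1 c2 c3 d1 d2 d3 e1 e2 e3
    q12 q23 q34 q45 q14 q25
  have back : ∀ (S : Set (Fin 6)) (x y : Fin 6), S.toFinset = {x, y} → S = {x, y} := by
    intro S x y hS
    ext i
    rw [← Set.mem_toFinset, hS]
    simp
  rcases hcase with ⟨i, hia, hic, hie, hac, hce, hae⟩ | ⟨x, y, s, t, w, ha, hc, he, hb, hd, hMM⟩
  · -- a colour in three exact pairs
    exfalso
    have hiz : i ∈ T z := Set.mem_toFinset.1 (a1 hia)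
    obtain ⟨d, e, hd, he, hdi, hei, hde, hdq, heq⟩ := h.two_contacts hmin (by omega) hiz
    have two : ∀ j, (g ((), j)).toFinset.card = 2 → i ∈ (g ((), j)).toFinset → j ≠ k →
        ∃ m, m ≠ i ∧ g ((), j) = {i, m} ∧ m ≠ d ∧ m ≠ e ∧ m ∈ T z := by
      intro j hj hij hjk
      rw [← Set.ncard_eq_toFinset_card'] at hj
      rw [Set.mem_toFinset] at hij
      obtain ⟨x, y, hxy, hS⟩ := Set.ncard_eq_two.1 hj
      obtain ⟨q, hq⟩ := hg.2 ((), j)
      have hTq := ex_self hq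
      have hm : ∃ m, m ≠ i ∧ g ((), j) = {i, m} := by
        rw [hS] at hij
        rcases hij with rfl | hij
        · exact ⟨y, hxy.symm, hS⟩
        · have hij : i = y := hij
          subst hij
          exact ⟨x, hxy, by rw [hS, Set.pair_comm]⟩
      obtain ⟨m, hmi, hS2⟩ := hm
      refine ⟨m, hmi, hS2, ?_, ?_, Leg5.sub h5 hf (hrun j hjk) (by rw [hS2]; simp)⟩
      · rintro rfl; exact hdq q hq.1 (by rw [hTq, hS2])
      · rintro rfl; exact heq q hq.1 (by rw [hTq, hS2])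
    obtain ⟨m1, p1, p2, p3, p4, p5⟩ := two (k + 1) n1 hia (hne 1 (by decide))
    obtain ⟨m2, r1, r2, r3, r4, r5⟩ := two (k + 3) n3 hic (hne 3 (by decide))
    obtain ⟨m3, s1, s2, s3, s4, s5⟩ := two (k + 5) n5 hie (hne 5 (by decide))
    have m12 : m1 ≠ m2 := by rintro rfl; exact hac (by simp only [p2, r2])
    have m23 : m2 ≠ m3 := by rintro rfl; exact hce (by simp only [r2, s2])
    have m13 : m1 ≠ m3 := by rintro rfl; exact hae (by simp only [p2, s2])
    have hsix : ({i, d, e, m1, m2, m3} : Set (Fin 6)) ⊆ T z := by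
      rintro x (rfl | rfl | rfl | rfl | rfl | rfl) <;> assumption
    have hcard : ({i, d, e, m1, m2, m3} : Set (Fin 6)).ncard = 6 := by
      rw [Set.ncard_insert_of_notMem (by simp [hdi.symm, hei.symm, p1.symm, r1.symm, s1.symm]),
        Set.ncard_insert_of_notMem (by simp [hde, p3.symm, r3.symm, s3.symm]),
        Set.ncard_insert_of_notMem (by simp [p4.symm, r4.symm, s4.symm]),
        Set.ncard_insert_of_notMem (by simp [m12, m13]), Set.ncard_pair m23]
    have := Set.ncard_le_ncard hsix (Set.toFinite _)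
    omega
  · -- the pentagon
    have ha := back _ _ _ ha
    have hb := back _ _ _ hb
    have hc := back _ _ _ hc
    have hd := back _ _ _ hd
    have he := back _ _ _ he
    have hr : T z = range ![x, t, y, w, s] := by
      ext i
      rw [← Set.mem_toFinset, hMM]
      simp only [Finset.mem_insert, Finset.mem_singleton, mem_range]
      constructor
      · rintro (rfl | rfl | rfl | rfl | rfl)
        · exact ⟨0, rfl⟩
        · exact ⟨2, rfl⟩
        · exact ⟨4, rfl⟩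
        · exact ⟨1, rfl⟩
        · exact ⟨3, rfl⟩
      · rintro ⟨j, rfl⟩
        fin_cases j
        · left; rfl
        · right; right; right; left; rfl
        · right; left; rfl
        · right; right; right; right; rfl
        · right; right; left; rfl
    refine ⟨![x, t, y, w, s], ?_, hr, ?_⟩
    · -- injective by counting
      have h1 : (range ![x, t, y, w, s]).ncard = 5 := by rw [← hr]; exact h5
      by_contra hninj
      have h2 : (Finset.univ.image ![x, t, y, w, s]).card < 5 := by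
        by_contra hcon
        push Not at hcon
        have h3 : (Finset.univ.image ![x, t, y, w, s]).card = (Finset.univ : Finset (Fin 5)).card :=
          le_antisymm Finset.card_image_le (by simpa using hcon)
        exact hninj fun a b hab => (Finset.card_image_iff.1 h3) (by simp) (by simp) hab
      have h3 : range ![x, t, y, w, s] = ((Finset.univ.image ![x, t, y, w, s] : Finset (Fin 6)) : Set (Fin 6)) := by
        simp
      rw [h3, Set.ncard_coe_finset] at h1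
      omega
    · intro i
      fin_cases i
      · obtain ⟨q, hq⟩ := hg.2 ((), k + 1)
        exact ⟨q, by rw [ha] at hq; exact hq⟩
      · obtain ⟨q, hq⟩ := hg.2 ((), k + 2)
        exact ⟨q, by rw [hb] at hq; exact hq⟩
      · obtain ⟨q, hq⟩ := hg.2 ((), k + 3)
        exact ⟨q, by rw [hc] at hq; exact hq⟩
      · obtain ⟨q, hq⟩ := hg.2 ((), k + 4)
        refine ⟨q, ?_⟩
        rw [hd] at hq
        exact hq
      · obtain ⟨q, hq⟩ := hg.2 ((), k + 5)
        refine ⟨q, ?_⟩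
        rw [he] at hq
        exact hq

/-- the type of the set of the slots with `f` -/
def ty (F : Fin 6 → Bool) : ℕ :=
  if F 0 && F 3 then 0 else if F 1 && F 4 then 1 else if F 2 && F 5 then 2 else
  if F 0 || F 2 || F 4 then 3 else 4

/-- two slots, no neighbours -/
def lF (F : Fin 6 → Bool) : Bool :=
  (!(F 0 && F 1) && !(F 1 && F 2) && !(F 2 && F 3) && !(F 3 && F 4) && !(F 4 && F 5) &&
    !(F 5 && F 0)) && 2 ≤ (F 0).toNat + (F 1).toNat + (F 2).toNat + (F 3).toNat + (F 4).toNat +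
    (F 5).toNat

/-- no adjacent slots -/
def nad (F G : Fin 6 → Bool) : Bool :=
  !(F 0 && G 1) && !(F 1 && G 2) && !(F 2 && G 3) && !(F 3 && G 4) && !(F 4 && G 5) && !(F 5 && G 0)

theorem ty_eq' : ∀ a0 a1 a2 a3 a4 a5 b0 b1 b2 b3 b4 b5 : Bool,
    lF ![a0, a1, a2, a3, a4, a5] = true → lF ![b0, b1, b2, b3, b4, b5] = true →
    nad ![a0, a1, a2, a3, a4, a5] ![b0, b1, b2, b3, b4, b5] = true →
    nad ![b0, b1, b2, b3, b4, b5] ![a0, a1, a2, a3, a4, a5] = true →
    ty ![a0, a1, a2, a3, a4, a5] = ty ![b0, b1, b2, b3, b4, b5] := by decide +kernel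

theorem ty_shift' : ∀ a0 a1 a2 a3 a4 a5 : Bool, lF ![a0, a1, a2, a3, a4, a5] = true →
    ty ![a1, a2, a3, a4, a5, a0] ≠ ty ![a0, a1, a2, a3, a4, a5] := by decide +kernel

theorem vec6 (F : Fin 6 → Bool) : F = ![F 0, F 1, F 2, F 3, F 4, F 5] := by
  funext i; fin_cases i <;> rfl

theorem ty_eq {F G : Fin 6 → Bool} (hF : lF F = true) (hG : lF G = true) (h1 : nad F G = true)
    (h2 : nad G F = true) : ty F = ty G := by
  rw [vec6 F, vec6 G] at *
  exact ty_eq' _ _ _ _ _ _ _ _ _ _ _ _ hF hG h1 h2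

open Classical in
/-- the slots with `f` -/
def Fs (f : Fin 6) (g : Unit × Fin 6 → Set (Fin 6)) : Fin 6 → Bool := fun j =>
  decide (f ∈ g ((), j))

theorem Fs_iff {f : Fin 6} {g : Unit × Fin 6 → Set (Fin 6)} {j : Fin 6} :
    Fs f g j = true ↔ f ∈ g ((), j) := by simp [Fs]

theorem nadj (F G : Fin 6 → Bool) (h : ∀ j, ¬ (F j = true ∧ G (j + 1) = true)) :
    nad F G = true := by
  unfold nad
  have h0 := h 0
  have h1 := h 1
  have h2 := h 2
  have h3 := h 3
  have h4 := h 4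
  have h5 := h 5
  have e0 : (0 : Fin 6) + 1 = 1 := rfl
  have e1 : (1 : Fin 6) + 1 = 2 := rfl
  have e2 : (2 : Fin 6) + 1 = 3 := rfl
  have e3 : (3 : Fin 6) + 1 = 4 := rfl
  have e4 : (4 : Fin 6) + 1 = 5 := rfl
  have e5 : (5 : Fin 6) + 1 = 0 := rfl
  rw [e0] at h0
  rw [e1] at h1
  rw [e2] at h2
  rw [e3] at h3
  rw [e4] at h4
  rw [e5] at h5
  simp only [← Bool.and_eq_true, Bool.not_eq_true] at h0 h1 h2 h3 h4 h5
  rw [h0, h1, h2, h3, h4, h5]
  rfl

/-- without a pentagon every legal column has two slots with `f` -/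
theorem lF_of (h : Irr U T)
    (hmin : ∀ z, 4 ≤ (T z).ncard → ∀ s, s ⊆ T z → s ≠ T z →
      ¬ ∀ᶠ w in 𝓝 z, ∃ i ∈ s, w ∈ U i ∨ (w ∈ XX U ∧ i ∈ Pal U w)) (h5 : (T z).ncard = 5)
    (hP : ¬ Pen T z) {g : Unit × Fin 6 → Set (Fin 6)} (hg : Leg5 U T z g) {f : Fin 6}
    (hf : f ∉ T z) : lF (Fs f g) = true := by
  have h1 : ∀ j, ¬ (Fs f g j = true ∧ Fs f g (j + 1) = true) := by
    rintro j ⟨h1, h2⟩
    exact Set.disjoint_left.1 (hg.1.sixty () j) (Fs_iff.1 h1) (Fs_iff.1 h2)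
  have h2 : ∀ k, ∃ j, j ≠ k ∧ Fs f g j = true := by
    intro k
    by_contra hcon
    push Not at hcon
    exact hP (run h hmin h5 hg hf k fun j hj hfj => hcon j hj (Fs_iff.2 hfj))
  have h3 := nadj _ _ h1
  unfold nad at h3
  unfold lF
  rw [h3, Bool.true_and, decide_eq_true_eq]
  obtain ⟨i, -, hi⟩ := h2 0
  obtain ⟨j, hji, hj⟩ := h2 i
  have key : ∀ a0 a1 a2 a3 a4 a5 : Bool, ∀ i j : Fin 6, j ≠ i → ![a0, a1, a2, a3, a4, a5] i = true →
      ![a0, a1, a2, a3, a4, a5] j = true →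
      2 ≤ a0.toNat + a1.toNat + a2.toNat + a3.toNat + a4.toNat + a5.toNat := by decide +kernel
  exact key _ _ _ _ _ _ i j hji (by rw [← vec6]; exact hi) (by rw [← vec6]; exact hj)

/-- the palettes behind two letters at the same slot, one with `f` and one without -/
theorem tr_of (h5 : (T z).ncard = 5) {u : ℝ} {g g' : Unit × Fin 6 → Set (Fin 6)}
    (hg : Leg5 U T z g) (hg' : Leg5 U T z g') (ha : Av (X5 T z) u g) (ha' : Av (X5 T z) u g')
    {f : Fin 6} (hf : f ∉ T z) {j : Fin 6} (h1 : f ∈ g ((), j)) (h2 : f ∈ g' ((), j + 1)) :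
    Tr T z f (pt z (u + (j.val : ℝ))) (pt z (u + (((j + 1 : Fin 6)).val : ℝ))) := by
  have h3 : f ∉ g' ((), j) := fun h => Set.disjoint_left.1 (hg'.1.sixty () j) h h2
  have h4 : f ∉ g ((), j + 1) := fun h => Set.disjoint_left.1 (hg.1.sixty () j) h1 h
  have hx : ∀ (k : Fin 6) (e : Unit × Fin 6 → Set (Fin 6)), Av (X5 T z) u e →
      pt z (u + (k.val : ℝ)) ∈ closure (Ex T z (e ((), k))) := by
    intro k e he
    obtain ⟨P, hP, -, h6⟩ := Xl_pal (he ((), k))
    have hP : P = e ((), k) := hP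
    rw [← hP]
    simpa using h6
  refine ⟨dist_pt _ _, dist_pt _ _, ?_, ⟨_, h1, hx _ _ ha⟩, ⟨_, Leg5.sub h5 hf h3, ?_, hx _ _ ha'⟩,
    ⟨_, h2, hx _ _ ha'⟩, ⟨_, Leg5.sub h5 hf h4, ?_, hx _ _ ha⟩⟩
  · have e1 := pt_succ z 0 u j
    rw [zero_add] at e1
    rw [e1]
    exact dist_pt_one _ _
  · exact (Leg5.two h5 hg' hf h3).1
  · exact (Leg5.two h5 hg hf h4).1

/-- **The pentagon of exact arcs or a transfer of the free colour.** -/
theorem five_or_transfer (h : Irr U T)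
    (hmin : ∀ z, 4 ≤ (T z).ncard → ∀ s, s ⊆ T z → s ≠ T z →
      ¬ ∀ᶠ w in 𝓝 z, ∃ i ∈ s, w ∈ U i ∨ (w ∈ XX U ∧ i ∈ Pal U w)) (h5 : (T z).ncard = 5) :
    Pen T z ∨ ∃ f p q, f ∉ T z ∧ Tr T z f p q := by
  by_contra hcon
  rw [not_or] at hcon
  obtain ⟨hP, hT⟩ := hcon
  push Not at hT
  obtain ⟨f, hf⟩ : ∃ f, f ∉ T z := by
    by_contra hall
    push Not at hall
    have h1 : T z = univ := eq_univ_of_forall hall
    rw [h1, Set.ncard_univ, Nat.card_eq_fintype_card] at h5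
    exact absurd h5 (by decide)
  have w := sw5 h z
  have loc : ∀ u : ℝ, ∀ g ∈ LC (X5 T z) u ∪ RC (X5 T z) u, ∀ g' ∈ LC (X5 T z) u ∪ RC (X5 T z) u,
      ty (Fs f g) = ty (Fs f g') := by
    intro u g hg g' hg'
    have hl : Leg5 U T z g := hg.elim w.leg_of_LC w.leg_of_RC
    have hl' : Leg5 U T z g' := hg'.elim w.leg_of_LC w.leg_of_RC
    have ha : Av (X5 T z) u g := hg.elim w.av_of_LC w.av_of_RC
    have ha' : Av (X5 T z) u g' := hg'.elim w.av_of_LC w.av_of_RC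
    refine ty_eq (lF_of h hmin h5 hP hl hf) (lF_of h hmin h5 hP hl' hf) (nadj _ _ ?_)
      (nadj _ _ ?_)
    · rintro j ⟨h1, h2⟩
      exact hT f _ _ hf (tr_of h5 hl hl' ha ha' hf (Fs_iff.1 h1) (Fs_iff.1 h2))
    · rintro j ⟨h1, h2⟩
      exact hT f _ _ hf (tr_of h5 hl' hl ha' ha hf (Fs_iff.1 h1) (Fs_iff.1 h2))
  have turn := w.turn (σ := rt Unit) (fun s l u => Xl_per s l u)
    (R := fun g g' => ty (Fs f g) = ty (Fs f g')) (fun _ _ _ h1 h2 => h1.trans h2) 0
    (fun u _ => loc u)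
  obtain ⟨g, hg⟩ := w.LC_ne 0
  obtain ⟨g', hg'⟩ := w.RC_ne 0
  have h1 : ty (Fs f g') = ty (Fs f (g ∘ rt Unit)) := turn g hg g' hg'
  have h2 : ty (Fs f g) = ty (Fs f g') := loc 0 g (Or.inl hg) g' (Or.inr hg')
  have h3 := lF_of h hmin h5 hP (w.leg_of_LC hg) hf
  rw [vec6 (Fs f g)] at h3
  have h4 := ty_shift' _ _ _ _ _ _ h3
  rw [← vec6 (Fs f g)] at h4
  refine h4 ?_
  rw [h2, h1]
  congr 1
  rw [vec6 (Fs f (g ∘ rt Unit))]
  rfl

end Vale.Agent.P032.H985
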